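import Mathlib

namespace Vale.Agent.Lib.P190

open RingTheory.Sequence IsLocalRing

universe u v

/-- `M` is a small (= maximal) Cohen-Macaulay module over the local ring `R`: it is finitely
generated, nonzero, and there is an `M`-regular sequence of elements of the maximal ideal whose
length is the Krull dimension of `R` (so that `depth M = dim R`). -/
def IsSmallCM (R : Type u) [CommRing R] [IsLocalRing R] (M : Type v) [AddCommGroup M]
    [Module R M] : Prop :=
  Module.Finite R M ∧ Nontrivial M ∧
    ∃ rs : List R, (∀ r ∈ rs, r ∈ maximalIdeal R) ∧ IsRegular M rs ∧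
      (rs.length : WithBot ℕ∞) = ringKrullDim R

end Vale.Agent.Lib.P190
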