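import Mathlib
import Vale.Agent.Lib.P190.Defs

universe u v

namespace Vale.Agent.Lib.P190

open RingTheory.Sequence IsLocalRing

theorem ringKrullDim_le_of_isIntegral (A R : Type*) [CommRing A] [CommRing R] [Algebra A R]
    [Algebra.IsIntegral A R] : ringKrullDim R ≤ ringKrullDim A := by
  refine Order.krullDim_le_of_strictMono (PrimeSpectrum.comap (algebraMap A R)) ?_
  intro P Q hPQ
  have h1 : P.asIdeal < Q.asIdeal := hPQ
  obtain ⟨x, hxQ, hxP⟩ := SetLike.exists_of_lt h1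
  exact Ideal.comap_lt_comap_of_integral_mem_sdiff h1.le ⟨hxQ, hxP⟩ (Algebra.IsIntegral.isIntegral x)

theorem isSmallCM_of_flat {A R : Type u} [CommRing A] [IsLocalRing A] [IsNoetherianRing A]
    [CommRing R] [IsLocalRing R] [Algebra A R] [Module.Finite A R]
    (hinj : Function.Injective (algebraMap A R)) (hA : IsSmallCM A A)
    (M : Type v) [AddCommGroup M] [Module A M] [Module R M] [IsScalarTower A R M]
    [Module.Flat A M] [Module.Finite A M] [Nontrivial M] : IsSmallCM R M := by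
  obtain ⟨-, -, rs, hmem, hreg, hlen⟩ := hA
  have hfinR : Module.Finite R M := Module.Finite.of_restrictScalars_finite A R M
  have hnoeth : IsNoetherianRing R := IsNoetherianRing.of_finite A R
  have : FaithfulSMul A R := (faithfulSMul_iff_algebraMap_injective A R).mpr hinj
  have hloc : IsLocalHom (algebraMap A R) := inferInstance
  have hmem' : ∀ r ∈ rs.map (algebraMap A R), r ∈ maximalIdeal R := by
    intro r hr
    obtain ⟨x, hx, rfl⟩ := List.mem_map.mp hr
    have := hmem x hx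
    rw [IsLocalRing.mem_maximalIdeal, mem_nonunits_iff] at this ⊢
    exact fun h => this (hloc.map_nonunit x h)
  have hw : IsWeaklyRegular M rs :=
    ((TensorProduct.rid A M).isWeaklyRegular_congr rs).mp
      (hreg.toIsWeaklyRegular.isWeaklyRegular_lTensor (M₂ := M))
  have hreg' : IsRegular M (rs.map (algebraMap A R)) :=
    (IsLocalRing.isRegular_iff_isWeaklyRegular_of_subset_maximalIdeal hmem').mpr
      ((isWeaklyRegular_map_algebraMap_iff R M rs).mpr hw)
  refine ⟨hfinR, inferInstance, rs.map (algebraMap A R), hmem', hreg', ?_⟩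
  apply le_antisymm
  · have h1 := Module.supportDim_add_length_eq_supportDim_of_isRegular _ hreg'
    have h2 := Module.supportDim_le_ringKrullDim R M
    have h3 : Nontrivial (M ⧸ Ideal.ofList (rs.map (algebraMap A R)) • (⊤ : Submodule R M)) :=
      hreg'.quot_ofList_smul_nontrivial ⊤
    have h4 : (0 : WithBot ℕ∞) ≤
        Module.supportDim R (M ⧸ Ideal.ofList (rs.map (algebraMap A R)) • (⊤ : Submodule R M)) := by
      have := Module.supportDim_ne_bot_of_nontrivial R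
        (M ⧸ Ideal.ofList (rs.map (algebraMap A R)) • (⊤ : Submodule R M))
      obtain ⟨y, hy⟩ := WithBot.ne_bot_iff_exists.mp this
      rw [← hy]
      exact_mod_cast (zero_le : (0 : ℕ∞) ≤ y)
    calc ((rs.map (algebraMap A R)).length : WithBot ℕ∞)
        ≤ Module.supportDim R (M ⧸ Ideal.ofList (rs.map (algebraMap A R)) • (⊤ : Submodule R M))
          + ((rs.map (algebraMap A R)).length : WithBot ℕ∞) := le_add_of_nonneg_left h4
      _ = Module.supportDim R M := h1
      _ ≤ ringKrullDim R := h2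
  · rw [List.length_map, hlen]
    exact ringKrullDim_le_of_isIntegral A R


/-- `Hom_A(R,A)`, to be given its `R`-module structure. -/
def DualMod (A R : Type u) [CommRing A] [CommRing R] [Algebra A R] := R →ₗ[A] A

namespace DualMod

variable (A R : Type u) [CommRing A] [CommRing R] [Algebra A R]

instance : AddCommGroup (DualMod A R) := inferInstanceAs (AddCommGroup (R →ₗ[A] A))
instance : Module A (DualMod A R) := inferInstanceAs (Module A (R →ₗ[A] A))

variable {A R}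

/-- the underlying linear map -/
def toLin : DualMod A R →ₗ[A] (R →ₗ[A] A) := LinearMap.id

/-- the inverse of `toLin` -/
def ofLin : (R →ₗ[A] A) →ₗ[A] DualMod A R := LinearMap.id

@[simp] lemma toLin_ofLin (w : R →ₗ[A] A) : toLin (ofLin w) = w := rfl

lemma ext {w w' : DualMod A R} (h : ∀ t, toLin w t = toLin w' t) : w = w' := LinearMap.ext h

instance : Module R (DualMod A R) where
  smul s w := ofLin ((toLin w).comp (LinearMap.mulLeft A s))
  one_smul w := by
    apply ext; intro t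
    show toLin w (1 * t) = _
    rw [one_mul]
  mul_smul s s' w := by
    apply ext; intro t
    show toLin w ((s * s') * t) = toLin w (s' * (s * t))
    congr 1; ring
  smul_zero s := by
    apply ext; intro t; rfl
  smul_add s w w' := by
    apply ext; intro t; rfl
  add_smul s s' w := by
    apply ext; intro t
    show toLin w ((s + s') * t) = toLin w (s * t) + toLin w (s' * t)
    rw [add_mul, map_add]
  zero_smul w := by
    apply ext; intro t
    show toLin w (0 * t) = 0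
    rw [zero_mul, map_zero]

lemma toLin_smul (s : R) (w : DualMod A R) (t : R) : toLin (s • w) t = toLin w (s * t) := rfl

instance : IsScalarTower A R (DualMod A R) where
  smul_assoc a s w := by
    apply ext; intro t
    rw [toLin_smul, map_smul, LinearMap.smul_apply, toLin_smul, smul_mul_assoc, map_smul]

end DualMod

open DualMod

section Lift

variable {A R : Type u} [CommRing A] [CommRing R] [Algebra A R] {N : ℕ}
  (π : (Fin N → A) →ₗ[A] R) (hπ : Function.Surjective π)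

lemma apply_eq_sum {P : Type*} [AddCommGroup P] [Module A P] (f : (Fin N → A) →ₗ[A] P)
    (x : Fin N → A) : f x = ∑ i, x i • f (Pi.single i 1) := by
  conv_lhs => rw [pi_eq_sum_univ' x, map_sum]
  simp only [map_smul]

/-- a symmetric bilinear lift of the multiplication of `R` to the free module -/
noncomputable def mulLift : (Fin N → A) →ₗ[A] (Fin N → A) →ₗ[A] (Fin N → A) :=
  LinearMap.mk₂ A
    (fun x y => ∑ i, ∑ j, (x i * y j) •
      Function.surjInv hπ (π (Pi.single i 1) * π (Pi.single j 1)))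
    (by intro x x' y; simp only [Pi.add_apply, add_mul, add_smul, Finset.sum_add_distrib])
    (by intro c x y; simp only [Pi.smul_apply, smul_eq_mul, Finset.smul_sum, smul_smul, mul_assoc])
    (by intro x y y'; simp only [Pi.add_apply, mul_add, add_smul, Finset.sum_add_distrib])
    (by intro c x y; simp only [Pi.smul_apply, smul_eq_mul, Finset.smul_sum, smul_smul,
          mul_left_comm])

lemma mulLift_apply (x y : Fin N → A) : mulLift π hπ x y = ∑ i, ∑ j, (x i * y j) •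
      Function.surjInv hπ (π (Pi.single i 1) * π (Pi.single j 1)) := rfl

lemma mulLift_comm (x y : Fin N → A) : mulLift π hπ x y = mulLift π hπ y x := by
  rw [mulLift_apply, mulLift_apply, Finset.sum_comm]
  refine Finset.sum_congr rfl fun i _ => Finset.sum_congr rfl fun j _ => ?_
  rw [mul_comm (x j) (y i), mul_comm (π (Pi.single j 1))]

lemma π_mulLift (x y : Fin N → A) : π (mulLift π hπ x y) = π x * π y := by
  rw [mulLift_apply, map_sum, apply_eq_sum π x, apply_eq_sum π y, Finset.sum_mul_sum]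
  refine Finset.sum_congr rfl fun i _ => ?_
  rw [map_sum]
  refine Finset.sum_congr rfl fun j _ => ?_
  rw [map_smul, Function.surjInv_eq hπ, smul_mul_smul_comm]

/-- a functional on a free module all of whose values are divisible by `a` is `a` times a
functional -/
lemma exists_div (a : A) (f : (Fin N → A) →ₗ[A] A) (h : ∀ y, a ∣ f y) :
    ∃ θ : (Fin N → A) →ₗ[A] A, ∀ y, a * θ y = f y := by
  choose b hb using fun i : Fin N => h (Pi.single i 1)
  refine ⟨∑ i, b i • LinearMap.proj i, fun y => ?_⟩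
  rw [apply_eq_sum f y]
  simp only [LinearMap.sum_apply, LinearMap.smul_apply, LinearMap.proj_apply, smul_eq_mul,
    Finset.mul_sum]
  refine Finset.sum_congr rfl fun i _ => ?_
  rw [hb i]; ring

end Lift

section Core

variable {A R : Type u} [CommRing A] [CommRing R] [Algebra A R] {N n : ℕ}
  (π : (Fin N → A) →ₗ[A] R) (hπ : Function.Surjective π)

/-- descent of a functional vanishing on `ker π` -/
noncomputable def descend (f : (Fin N → A) →ₗ[A] A) (hf : ∀ y, π y = 0 → f y = 0) :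
    R →ₗ[A] A where
  toFun t := f (Function.surjInv hπ t)
  map_add' t t' := by
    rw [← map_add, ← sub_eq_zero, ← map_sub]
    apply hf
    simp only [map_sub, map_add, Function.surjInv_eq hπ, sub_self]
  map_smul' c t := by
    rw [RingHom.id_apply, ← map_smul, ← sub_eq_zero, ← map_sub]
    apply hf
    simp only [map_sub, map_smul, Function.surjInv_eq hπ, sub_self]

lemma descend_apply (f : (Fin N → A) →ₗ[A] A) (hf : ∀ y, π y = 0 → f y = 0) (y : Fin N → A) :
    descend π hπ f hf (π y) = f y := by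
  show f (Function.surjInv hπ (π y)) = f y
  rw [← sub_eq_zero, ← map_sub]
  apply hf
  simp only [map_sub, Function.surjInv_eq hπ, sub_self]

variable (a : A) (ξ₀ : (Fin N → A) →ₗ[A] A) (hker : ∀ z, π z = 0 → a ∣ ξ₀ z)

/-- the candidate small Cohen-Macaulay module, inside `Hom_A(R,A) × R` -/
def Mmod : Submodule R (DualMod A R × R) where
  carrier := {p | ∀ y z, π z = p.2 * π y → a ∣ toLin p.1 (π y) + ξ₀ z}
  add_mem' := by
    intro p p' hp hp' y z hz
    obtain ⟨z₁, hz₁⟩ := hπ (p.2 * π y)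
    have h2 : π (z - z₁) = p'.2 * π y := by
      rw [map_sub, hz, hz₁, Prod.snd_add]; ring
    have := dvd_add (hp y z₁ hz₁) (hp' y (z - z₁) h2)
    convert this using 1
    rw [Prod.fst_add, map_add, LinearMap.add_apply, map_sub]; ring
  zero_mem' := by
    intro y z hz
    rw [Prod.snd_zero, zero_mul] at hz
    rw [Prod.fst_zero, map_zero, LinearMap.zero_apply, zero_add]
    exact hker z hz
  smul_mem' := by
    intro s p hp y z hz
    obtain ⟨y', hy'⟩ := hπ (s * π y)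
    have h2 : π z = p.2 * π y' := by
      rw [hz, hy', Prod.smul_snd, smul_eq_mul]; ring
    have := hp y' z h2
    rwa [hy', ← toLin_smul] at this

lemma mem_Mmod (p : DualMod A R × R) : p ∈ Mmod π hπ a ξ₀ hker ↔
    ∀ y z, π z = p.2 * π y → a ∣ toLin p.1 (π y) + ξ₀ z := Iff.rfl

/-- the functional `a ξ - ξ₀ (m x ·)` attached to `(x, ξ)` -/
noncomputable def fLin : ((Fin N → A) × ((Fin N → A) →ₗ[A] A)) →ₗ[A] ((Fin N → A) →ₗ[A] A) :=
  a • LinearMap.snd A (Fin N → A) ((Fin N → A) →ₗ[A] A) -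
    ((mulLift π hπ).compr₂ ξ₀) ∘ₗ LinearMap.fst A (Fin N → A) ((Fin N → A) →ₗ[A] A)

lemma fLin_apply (z : (Fin N → A) × ((Fin N → A) →ₗ[A] A)) (y : Fin N → A) :
    fLin π hπ a ξ₀ z y = a * z.2 y - ξ₀ (mulLift π hπ z.1 y) := rfl

/-- the submodule `Z` of `F × F^*` -/
def Zmod : Submodule A ((Fin N → A) × ((Fin N → A) →ₗ[A] A)) where
  carrier := {z | ∀ y, π y = 0 → fLin π hπ a ξ₀ z y = 0}
  add_mem' := by
    intro z z' hz hz' y hy
    rw [map_add, LinearMap.add_apply, hz y hy, hz' y hy, add_zero]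
  zero_mem' := by
    intro y _
    rw [map_zero, LinearMap.zero_apply]
  smul_mem' := by
    intro c z hz y hy
    rw [map_smul, LinearMap.smul_apply, hz y hy, smul_zero]

lemma mem_Zmod (z : (Fin N → A) × ((Fin N → A) →ₗ[A] A)) : z ∈ Zmod π hπ a ξ₀ ↔
    ∀ y, π y = 0 → fLin π hπ a ξ₀ z y = 0 := Iff.rfl

/-- functionals vanishing on `ker π` -/
def Svan : Submodule A ((Fin N → A) →ₗ[A] A) where
  carrier := {f | ∀ y, π y = 0 → f y = 0}
  add_mem' := by
    intro f f' hf hf' y hy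
    rw [LinearMap.add_apply, hf y hy, hf' y hy, add_zero]
  zero_mem' := by
    intro y _
    rw [LinearMap.zero_apply]
  smul_mem' := by
    intro c f hf y hy
    rw [LinearMap.smul_apply, hf y hy, smul_zero]

lemma mem_Svan (f : (Fin N → A) →ₗ[A] A) : f ∈ Svan π ↔ ∀ y, π y = 0 → f y = 0 := Iff.rfl

/-- descent as a linear map -/
noncomputable def descendL : Svan π →ₗ[A] (R →ₗ[A] A) where
  toFun f := descend π hπ f.1 ((mem_Svan π f.1).1 f.2)
  map_add' f f' := by
    apply LinearMap.ext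
    intro t
    obtain ⟨y, rfl⟩ := hπ t
    rw [LinearMap.add_apply, descend_apply, descend_apply, descend_apply]
    rfl
  map_smul' c f := by
    apply LinearMap.ext
    intro t
    obtain ⟨y, rfl⟩ := hπ t
    rw [RingHom.id_apply, LinearMap.smul_apply, descend_apply, descend_apply]
    rfl

lemma descendL_apply (f : Svan π) (y : Fin N → A) : descendL π hπ f (π y) = f.1 y :=
  descend_apply π hπ f.1 ((mem_Svan π f.1).1 f.2) y

/-- the comparison map `Z → Hom_A(R,A) × R` -/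
noncomputable def Psi0 : Zmod π hπ a ξ₀ →ₗ[A] (DualMod A R × R) :=
  LinearMap.prod
    (ofLin ∘ₗ descendL π hπ ∘ₗ
      LinearMap.codRestrict (Svan π) (fLin π hπ a ξ₀ ∘ₗ (Zmod π hπ a ξ₀).subtype)
        (fun z => (mem_Svan π _).2 ((mem_Zmod π hπ a ξ₀ z.1).1 z.2)))
    (π ∘ₗ LinearMap.fst A _ _ ∘ₗ (Zmod π hπ a ξ₀).subtype)

lemma Psi0_snd (z : Zmod π hπ a ξ₀) : (Psi0 π hπ a ξ₀ z).2 = π z.1.1 := rfl

lemma Psi0_fst (z : Zmod π hπ a ξ₀) (y : Fin N → A) :
    toLin (Psi0 π hπ a ξ₀ z).1 (π y) = a * z.1.2 y - ξ₀ (mulLift π hπ z.1.1 y) :=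
  descendL_apply π hπ _ y

include hker in
lemma Psi0_mem (z : Zmod π hπ a ξ₀) : Psi0 π hπ a ξ₀ z ∈ Mmod π hπ a ξ₀ hker := by
  rw [mem_Mmod]
  intro y z' hz'
  rw [Psi0_fst]
  rw [Psi0_snd] at hz'
  have h1 : π (z' - mulLift π hπ z.1.1 y) = 0 := by
    rw [map_sub, hz', π_mulLift, sub_self]
  obtain ⟨b, hb⟩ := hker _ h1
  rw [map_sub] at hb
  refine ⟨z.1.2 y + b, ?_⟩
  rw [mul_add, ← hb]; ring

/-- the comparison map `Z → M` -/
noncomputable def Psi : Zmod π hπ a ξ₀ →ₗ[A] Mmod π hπ a ξ₀ hker where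
  toFun z := ⟨Psi0 π hπ a ξ₀ z, Psi0_mem π hπ a ξ₀ hker z⟩
  map_add' z z' := Subtype.ext (map_add (Psi0 π hπ a ξ₀) z z')
  map_smul' c z := Subtype.ext (map_smul (Psi0 π hπ a ξ₀) c z)

lemma Psi_coe (z : Zmod π hπ a ξ₀) : (Psi π hπ a ξ₀ hker z : DualMod A R × R) = Psi0 π hπ a ξ₀ z :=
  rfl

lemma Psi_surjective : Function.Surjective (Psi π hπ a ξ₀ hker) := by
  rintro ⟨p, hp⟩
  obtain ⟨x, hx⟩ := hπ p.2
  rw [mem_Mmod] at hp
  have hdiv : ∀ y, a ∣ ((toLin p.1).comp π + (mulLift π hπ).compr₂ ξ₀ x) y := fun y =>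
    hp y (mulLift π hπ x y) (by rw [π_mulLift, hx])
  obtain ⟨ξ, hξ⟩ := exists_div a _ hdiv
  have hξ' : ∀ y, a * ξ y = toLin p.1 (π y) + ξ₀ (mulLift π hπ x y) := hξ
  have hz : (x, ξ) ∈ Zmod π hπ a ξ₀ := by
    rw [mem_Zmod]
    intro y hy
    rw [fLin_apply, hξ', hy, map_zero]
    simp
  refine ⟨⟨(x, ξ), hz⟩, Subtype.ext (Prod.ext (DualMod.ext fun t => ?_) hx)⟩
  obtain ⟨y, rfl⟩ := hπ t
  rw [Psi_coe, Psi0_fst]
  simp only
  rw [hξ']
  ring

end Core

section Split

variable {A R : Type u} [CommRing A] [IsDomain A] [CommRing R] [Algebra A R] {N n : ℕ}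
  (π : (Fin N → A) →ₗ[A] R) (hπ : Function.Surjective π)
  (a : A) (ha : a ≠ 0) (ξ₀ : (Fin N → A) →ₗ[A] A) (hker : ∀ z, π z = 0 → a ∣ ξ₀ z)

include hker in
lemma exists_theta (u : Fin N → A) (hu : π u = 0) :
    ∃ θ : (Fin N → A) →ₗ[A] A, ∀ y, a * θ y = ξ₀ (mulLift π hπ y u) := by
  refine exists_div a (ξ₀ ∘ₗ (mulLift π hπ).flip u) fun y => ?_
  apply hker
  rw [LinearMap.flip_apply, π_mulLift, hu, mul_zero]

variable (φ : (Fin n → A) →ₗ[A] (Fin N → A)) (hex : ∀ z, π z = 0 ↔ ∃ g, φ g = z)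

/-- the functionals `θ_k` -/
noncomputable def theta (k : Fin n) : (Fin N → A) →ₗ[A] A :=
  Classical.choose (exists_theta π hπ a ξ₀ hker (φ (Pi.single k 1)) ((hex _).2 ⟨_, rfl⟩))

lemma theta_spec (k : Fin n) (y : Fin N → A) :
    a * theta π hπ a ξ₀ hker φ hex k y = ξ₀ (mulLift π hπ y (φ (Pi.single k 1))) :=
  Classical.choose_spec (exists_theta π hπ a ξ₀ hker (φ (Pi.single k 1)) ((hex _).2 ⟨_, rfl⟩)) y

lemma fLin_P (k : Fin n) (y : Fin N → A) :
    fLin π hπ a ξ₀ (φ (Pi.single k 1), theta π hπ a ξ₀ hker φ hex k) y = 0 := by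
  rw [fLin_apply]
  simp only
  rw [theta_spec, mulLift_comm, sub_self]

/-- the elements `p_k` of `Z` spanning the kernel of `Psi` -/
noncomputable def Pk (k : Fin n) : Zmod π hπ a ξ₀ :=
  ⟨(φ (Pi.single k 1), theta π hπ a ξ₀ hker φ hex k),
    (mem_Zmod π hπ a ξ₀ _).2 fun y _ => fLin_P π hπ a ξ₀ hker φ hex k y⟩

lemma Psi_Pk (k : Fin n) : Psi π hπ a ξ₀ hker (Pk π hπ a ξ₀ hker φ hex k) = 0 := by
  apply Subtype.ext
  rw [Psi_coe]
  apply Prod.ext
  · apply DualMod.ext
    intro t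
    obtain ⟨y, rfl⟩ := hπ t
    rw [Psi0_fst]
    exact fLin_P π hπ a ξ₀ hker φ hex k y
  · rw [Psi0_snd]
    exact (hex _).2 ⟨_, rfl⟩

variable (xq : Fin n → (Fin N → A)) (ξq : Fin n → ((Fin N → A) →ₗ[A] A))
  (hQ : ∀ k g, a * ξq k (φ g) - ξ₀ (mulLift π hπ (xq k) (φ g)) = a * g k)

/-- the functionals `ρ_k` on `F × F^*` -/
noncomputable def rho (k : Fin n) : ((Fin N → A) × ((Fin N → A) →ₗ[A] A)) →ₗ[A] A :=
  ξq k ∘ₗ LinearMap.fst A _ _ - LinearMap.applyₗ (xq k) ∘ₗ LinearMap.snd A _ _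

lemma rho_apply (k : Fin n) (z : (Fin N → A) × ((Fin N → A) →ₗ[A] A)) :
    rho xq ξq k z = ξq k z.1 - z.2 (xq k) := rfl

include ha hQ in
lemma rho_Pk (k l : Fin n) :
    rho xq ξq k (Pk π hπ a ξ₀ hker φ hex l).1 = (Pi.single l 1 : Fin n → A) k := by
  apply mul_left_cancel₀ ha
  rw [rho_apply, mul_sub, ← hQ k (Pi.single l 1)]
  show a * ξq k (φ (Pi.single l 1)) - a * theta π hπ a ξ₀ hker φ hex l (xq k) = _
  rw [theta_spec]

/-- the functionals `Φ_k` on `F × F^*` -/
noncomputable def Phi (k : Fin n) : ((Fin N → A) × ((Fin N → A) →ₗ[A] A)) →ₗ[A] A :=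
  LinearMap.applyₗ (φ (Pi.single k 1)) ∘ₗ LinearMap.snd A _ _ -
    theta π hπ a ξ₀ hker φ hex k ∘ₗ LinearMap.fst A _ _

lemma Phi_apply (k : Fin n) (z : (Fin N → A) × ((Fin N → A) →ₗ[A] A)) :
    Phi π hπ a ξ₀ hker φ hex k z = z.2 (φ (Pi.single k 1)) - theta π hπ a ξ₀ hker φ hex k z.1 :=
  rfl

lemma a_mul_Phi (k : Fin n) (z : (Fin N → A) × ((Fin N → A) →ₗ[A] A)) :
    a * Phi π hπ a ξ₀ hker φ hex k z = fLin π hπ a ξ₀ z (φ (Pi.single k 1)) := by
  rw [Phi_apply, mul_sub, theta_spec, fLin_apply]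

include hQ in
lemma fLin_q (k : Fin n) (g : Fin n → A) : fLin π hπ a ξ₀ (xq k, ξq k) (φ g) = a * g k := by
  rw [fLin_apply]; exact hQ k g

/-- the endomorphism `z ↦ z - ∑ Φ_k(z) q_k` of `F × F^*` -/
noncomputable def retr0 : ((Fin N → A) × ((Fin N → A) →ₗ[A] A)) →ₗ[A]
    ((Fin N → A) × ((Fin N → A) →ₗ[A] A)) :=
  LinearMap.id - ∑ k, (Phi π hπ a ξ₀ hker φ hex k).smulRight (xq k, ξq k)

lemma retr0_apply (z : (Fin N → A) × ((Fin N → A) →ₗ[A] A)) :
    retr0 π hπ a ξ₀ hker φ hex xq ξq z = z - ∑ k, Phi π hπ a ξ₀ hker φ hex k z • (xq k, ξq k) := by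
  simp [retr0]

include hQ in
lemma retr0_mem (z : (Fin N → A) × ((Fin N → A) →ₗ[A] A)) :
    retr0 π hπ a ξ₀ hker φ hex xq ξq z ∈ Zmod π hπ a ξ₀ := by
  rw [mem_Zmod]
  intro y hy
  obtain ⟨g, rfl⟩ := (hex y).1 hy
  have key : ∀ l : Fin n,
      fLin π hπ a ξ₀ (retr0 π hπ a ξ₀ hker φ hex xq ξq z) (φ (Pi.single l 1)) = 0 := by
    intro l
    rw [retr0_apply, map_sub, map_sum, LinearMap.sub_apply, LinearMap.sum_apply,
      ← a_mul_Phi π hπ a ξ₀ hker φ hex]
    simp only [map_smul, LinearMap.smul_apply, fLin_q π hπ a ξ₀ φ xq ξq hQ, smul_eq_mul]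
    rw [Finset.sum_eq_single l]
    · simp [mul_comm]
    · intro k _ hk
      simp [hk]
    · simp
  have := apply_eq_sum (fLin π hπ a ξ₀ (retr0 π hπ a ξ₀ hker φ hex xq ξq z) ∘ₗ φ) g
  simp only [LinearMap.comp_apply, key, smul_zero, Finset.sum_const_zero] at this
  exact this

/-- the retraction of `F × F^*` onto `Z` -/
noncomputable def retr : ((Fin N → A) × ((Fin N → A) →ₗ[A] A)) →ₗ[A] Zmod π hπ a ξ₀ :=
  LinearMap.codRestrict _ (retr0 π hπ a ξ₀ hker φ hex xq ξq)
    (retr0_mem π hπ a ξ₀ hker φ hex xq ξq hQ)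

include ha in
lemma retr_coe (z : Zmod π hπ a ξ₀) : retr π hπ a ξ₀ hker φ hex xq ξq hQ z.1 = z := by
  apply Subtype.ext
  show retr0 π hπ a ξ₀ hker φ hex xq ξq z.1 = z.1
  rw [retr0_apply]
  have : ∀ k, Phi π hπ a ξ₀ hker φ hex k z.1 = 0 := by
    intro k
    apply mul_left_cancel₀ ha
    rw [a_mul_Phi, mul_zero]
    exact (mem_Zmod π hπ a ξ₀ z.1).1 z.2 _ ((hex _).2 ⟨_, rfl⟩)
  simp [this]

include ha in
lemma eq_sum_of_Psi_eq_zero (z : Zmod π hπ a ξ₀) (hz : Psi π hπ a ξ₀ hker z = 0) :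
    ∃ g : Fin n → A, z = ∑ k, g k • Pk π hπ a ξ₀ hker φ hex k := by
  have h0 : Psi0 π hπ a ξ₀ z = 0 := by
    rw [← Psi_coe π hπ a ξ₀ hker, hz]; rfl
  have h1 : π z.1.1 = 0 := by
    rw [← Psi0_snd, h0]; rfl
  have h2 : ∀ y, a * z.1.2 y = ξ₀ (mulLift π hπ z.1.1 y) := by
    intro y
    have := Psi0_fst π hπ a ξ₀ z y
    rw [h0] at this
    rw [← sub_eq_zero, ← this]; rfl
  obtain ⟨g, hg⟩ := (hex _).1 h1
  refine ⟨g, Subtype.ext (Prod.ext ?_ (LinearMap.ext fun y => mul_left_cancel₀ ha ?_))⟩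
  · rw [← hg, apply_eq_sum φ g]
    simp only [Submodule.coe_sum, Submodule.coe_smul, Prod.fst_sum, Prod.smul_fst]
    rfl
  · have h3 := apply_eq_sum (ξ₀ ∘ₗ mulLift π hπ y ∘ₗ φ) g
    simp only [LinearMap.comp_apply] at h3
    rw [h2 y, ← hg, mulLift_comm, h3]
    simp only [Submodule.coe_sum, Submodule.coe_smul, Prod.snd_sum, Prod.smul_snd,
      LinearMap.sum_apply, LinearMap.smul_apply, Finset.mul_sum, smul_eq_mul]
    refine Finset.sum_congr rfl fun k _ => ?_
    rw [← theta_spec π hπ a ξ₀ hker φ hex k y]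
    show _ = a * (g k * theta π hπ a ξ₀ hker φ hex k y)
    ring

/-- the idempotent endomorphism of `Z` killing the kernel of `Psi` -/
noncomputable def Eend : Zmod π hπ a ξ₀ →ₗ[A] Zmod π hπ a ξ₀ where
  toFun z := z + ∑ k, (-rho xq ξq k z.1) • Pk π hπ a ξ₀ hker φ hex k
  map_add' z z' := by
    simp only [Submodule.coe_add, map_add, neg_add, add_smul, Finset.sum_add_distrib]
    exact add_add_add_comm _ _ _ _
  map_smul' c z := by
    simp only [Submodule.coe_smul, map_smul, smul_eq_mul, RingHom.id_apply, smul_add,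
      Finset.smul_sum, smul_smul, mul_neg]

lemma Eend_apply (z : Zmod π hπ a ξ₀) : Eend π hπ a ξ₀ hker φ hex xq ξq z =
    z + ∑ k, (-rho xq ξq k z.1) • Pk π hπ a ξ₀ hker φ hex k := rfl

lemma Psi_Eend (z : Zmod π hπ a ξ₀) :
    Psi π hπ a ξ₀ hker (Eend π hπ a ξ₀ hker φ hex xq ξq z) = Psi π hπ a ξ₀ hker z := by
  rw [Eend_apply, map_add, map_sum]
  simp only [map_smul, Psi_Pk, smul_zero, Finset.sum_const_zero, add_zero]

include ha hQ in
lemma Eend_eq_zero (z : Zmod π hπ a ξ₀) (hz : Psi π hπ a ξ₀ hker z = 0) :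
    Eend π hπ a ξ₀ hker φ hex xq ξq z = 0 := by
  obtain ⟨g, rfl⟩ := eq_sum_of_Psi_eq_zero π hπ a ha ξ₀ hker φ hex z hz
  rw [Eend_apply, ← Finset.sum_add_distrib]
  refine Finset.sum_eq_zero fun k _ => ?_
  rw [← add_smul]
  have : rho xq ξq k (∑ l, g l • Pk π hπ a ξ₀ hker φ hex l : Zmod π hπ a ξ₀).1 = g k := by
    rw [Submodule.coe_sum, map_sum]
    simp only [Submodule.coe_smul, map_smul, rho_Pk π hπ a ha ξ₀ hker φ hex xq ξq hQ, smul_eq_mul]
    rw [Finset.sum_eq_single k]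
    · simp
    · intro l _ hl
      simp [hl]
    · simp
  rw [this, add_neg_cancel, zero_smul]

omit [IsDomain A] in
lemma add_neg_one_smul {P : Type*} [AddCommMonoid P] [Module A P] (x : P) :
    x + (-1 : A) • x = 0 := by
  calc x + (-1 : A) • x = (1 : A) • x + (-1 : A) • x := by rw [one_smul]
    _ = ((1 : A) + -1) • x := (add_smul _ _ _).symm
    _ = 0 := by rw [add_neg_cancel, zero_smul]

include ha hQ in
lemma Eend_congr (u u' : Zmod π hπ a ξ₀) (h : Psi π hπ a ξ₀ hker u = Psi π hπ a ξ₀ hker u') :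
    Eend π hπ a ξ₀ hker φ hex xq ξq u = Eend π hπ a ξ₀ hker φ hex xq ξq u' := by
  have h1 : Psi π hπ a ξ₀ hker (u + (-1 : A) • u') = 0 := by
    rw [map_add, map_smul, h, add_neg_one_smul]
  have h2 := Eend_eq_zero π hπ a ha ξ₀ hker φ hex xq ξq hQ _ h1
  rw [map_add, map_smul] at h2
  calc Eend π hπ a ξ₀ hker φ hex xq ξq u
      = Eend π hπ a ξ₀ hker φ hex xq ξq u + ((-1 : A) + 1) • Eend π hπ a ξ₀ hker φ hex xq ξq u' := by
        rw [neg_add_cancel, zero_smul, add_zero]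
    _ = (Eend π hπ a ξ₀ hker φ hex xq ξq u + (-1 : A) • Eend π hπ a ξ₀ hker φ hex xq ξq u') +
          Eend π hπ a ξ₀ hker φ hex xq ξq u' := by
        rw [add_smul, one_smul, add_assoc]
    _ = Eend π hπ a ξ₀ hker φ hex xq ξq u' := by rw [h2, zero_add]

/-- a linear section of `Psi` -/
noncomputable def sect : Mmod π hπ a ξ₀ hker →ₗ[A] Zmod π hπ a ξ₀ where
  toFun p := Eend π hπ a ξ₀ hker φ hex xq ξq
    (Function.surjInv (Psi_surjective π hπ a ξ₀ hker) p)
  map_add' p p' := by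
    rw [← map_add]
    apply Eend_congr π hπ a ha ξ₀ hker φ hex xq ξq hQ
    simp only [map_add, Function.surjInv_eq]
  map_smul' c p := by
    rw [RingHom.id_apply, ← map_smul]
    apply Eend_congr π hπ a ha ξ₀ hker φ hex xq ξq hQ
    simp only [map_smul, Function.surjInv_eq]

lemma Psi_sect (p : Mmod π hπ a ξ₀ hker) :
    Psi π hπ a ξ₀ hker (sect π hπ a ha ξ₀ hker φ hex xq ξq hQ p) = p := by
  show Psi π hπ a ξ₀ hker (Eend π hπ a ξ₀ hker φ hex xq ξq _) = p
  rw [Psi_Eend, Function.surjInv_eq (Psi_surjective π hπ a ξ₀ hker) p]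

include ha hQ hex in
theorem projective_Mmod : Module.Projective A (Mmod π hπ a ξ₀ hker) := by
  refine Module.Projective.of_split
    ((Zmod π hπ a ξ₀).subtype ∘ₗ sect π hπ a ha ξ₀ hker φ hex xq ξq hQ)
    (Psi π hπ a ξ₀ hker ∘ₗ retr π hπ a ξ₀ hker φ hex xq ξq hQ) ?_
  apply LinearMap.ext
  intro p
  simp only [LinearMap.comp_apply, Submodule.subtype_apply, LinearMap.id_apply]
  rw [retr_coe π hπ a ha ξ₀ hker φ hex xq ξq hQ, Psi_sect]

include ha hQ hex in
theorem finite_Mmod : Module.Finite A (Mmod π hπ a ξ₀ hker) := by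
  have hs := Psi_surjective π hπ a ξ₀ hker
  have hr : Function.Surjective (retr π hπ a ξ₀ hker φ hex xq ξq hQ) := fun z =>
    ⟨z.1, retr_coe π hπ a ha ξ₀ hker φ hex xq ξq hQ z⟩
  exact Module.Finite.of_surjective
    (Psi π hπ a ξ₀ hker ∘ₗ retr π hπ a ξ₀ hker φ hex xq ξq hQ) (hs.comp hr)

end Split

section Final

variable {A R : Type u} [CommRing A] [IsDomain A] [CommRing R] [Algebra A R] {N n : ℕ}
  (π : (Fin N → A) →ₗ[A] R) (hπ : Function.Surjective π)
  (a : A) (ha : a ≠ 0) (ξ₀ : (Fin N → A) →ₗ[A] A) (hker : ∀ z, π z = 0 → a ∣ ξ₀ z)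

include ha in
theorem nontrivial_Mmod (hinj : Function.Injective (algebraMap A R)) :
    Nontrivial (Mmod π hπ a ξ₀ hker) := by
  have hmem : ((0 : DualMod A R), algebraMap A R a) ∈ Mmod π hπ a ξ₀ hker := by
    rw [mem_Mmod]
    intro y z hz
    have h1 : π (z - a • y) = 0 := by
      rw [map_sub, map_smul, hz, Algebra.smul_def, sub_self]
    obtain ⟨b, hb⟩ := hker _ h1
    rw [map_sub, map_smul, smul_eq_mul] at hb
    refine ⟨b + ξ₀ y, ?_⟩
    rw [map_zero, LinearMap.zero_apply, zero_add, mul_add, ← hb]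
    ring
  refine ⟨⟨⟨_, hmem⟩, 0, fun h => ?_⟩⟩
  have h2 : algebraMap A R a = 0 :=
    congrArg (fun p : Mmod π hπ a ξ₀ hker => (p : DualMod A R × R).2) h
  exact ha (hinj (by rw [h2, map_zero]))

include ha in
theorem isSmallCM_Mmod [IsLocalRing A] [IsNoetherianRing A] [IsLocalRing R]
    (hinj : Function.Injective (algebraMap A R)) (hA : IsSmallCM A A)
    (φ : (Fin n → A) →ₗ[A] (Fin N → A)) (hex : ∀ z, π z = 0 ↔ ∃ g, φ g = z)
    (xq : Fin n → (Fin N → A)) (ξq : Fin n → ((Fin N → A) →ₗ[A] A))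
    (hQ : ∀ k g, a * ξq k (φ g) - ξ₀ (mulLift π hπ (xq k) (φ g)) = a * g k) :
    IsSmallCM R (Mmod π hπ a ξ₀ hker) := by
  have := projective_Mmod π hπ a ha ξ₀ hker φ hex xq ξq hQ
  have := finite_Mmod π hπ a ha ξ₀ hker φ hex xq ξq hQ
  have := nontrivial_Mmod π hπ a ha ξ₀ hker hinj
  have : Module.Finite A R := Module.Finite.of_surjective π hπ
  exact isSmallCM_of_flat hinj hA _

end Final

/-- one relation -/
theorem exists_smallCM_of_one_relation {A R : Type u} [CommRing A] [IsDomain A] [IsLocalRing A]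
    [IsNoetherianRing A] [CommRing R] [IsLocalRing R] [Algebra A R]
    (hinj : Function.Injective (algebraMap A R)) (hA : IsSmallCM A A)
    (N : ℕ) (π : (Fin N → A) →ₗ[A] R) (hπ : Function.Surjective π) (v : Fin N → A)
    (hv : LinearMap.ker π = Submodule.span A {v}) :
    ∃ (M : Type u) (_ : AddCommGroup M) (_ : Module R M), IsSmallCM R M := by
  by_cases hv0 : v = 0
  · -- `R` is free
    have hinjπ : Function.Injective π := by
      rw [← LinearMap.ker_eq_bot, hv, hv0]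
      simp
    let e : (Fin N → A) ≃ₗ[A] R := LinearEquiv.ofBijective π ⟨hinjπ, hπ⟩
    have : Module.Free A R := Module.Free.of_equiv e
    have : Module.Finite A R := Module.Finite.of_surjective π hπ
    exact ⟨R, inferInstance, inferInstance, isSmallCM_of_flat hinj hA R⟩
  · obtain ⟨i₀, hi₀⟩ : ∃ i, v i ≠ 0 := by
      by_contra h
      exact hv0 (funext fun i => by_contra fun hi => h ⟨i, hi⟩)
    have hmemker : ∀ z, π z = 0 ↔ ∃ b : A, b • v = z := by
      intro z
      rw [← LinearMap.mem_ker, hv, Submodule.mem_span_singleton]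
    let φ : (Fin 1 → A) →ₗ[A] (Fin N → A) := (LinearMap.proj 0).smulRight v
    have hφ : ∀ g, φ g = g 0 • v := fun g => rfl
    have hex : ∀ z, π z = 0 ↔ ∃ g, φ g = z := by
      intro z
      rw [hmemker]
      constructor
      · rintro ⟨b, rfl⟩
        exact ⟨fun _ => b, rfl⟩
      · rintro ⟨g, rfl⟩
        exact ⟨g 0, rfl⟩
    let ξ₀ : (Fin N → A) →ₗ[A] A := LinearMap.proj i₀
    have hker : ∀ z, π z = 0 → v i₀ ∣ ξ₀ z := by
      intro z hz
      obtain ⟨b, rfl⟩ := (hmemker z).1 hz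
      exact ⟨b, by simp [ξ₀, mul_comm]⟩
    obtain ⟨x₁, hx₁⟩ := hπ 1
    obtain ⟨ζ, hζ⟩ := exists_div (v i₀) (ξ₀ ∘ₗ (mulLift π hπ x₁ - LinearMap.id)) (by
      intro y
      exact hker (mulLift π hπ x₁ y - y) (by rw [map_sub, π_mulLift, hx₁, one_mul, sub_self]))
    have hζ' : ∀ y, v i₀ * ζ y = ξ₀ (mulLift π hπ x₁ y) - ξ₀ y := by
      intro y
      rw [hζ y]
      simp
    refine ⟨Mmod π hπ (v i₀) ξ₀ hker, inferInstance, inferInstance,
      isSmallCM_Mmod π hπ (v i₀) hi₀ ξ₀ hker hinj hA φ hex (fun _ => -x₁) (fun _ => -ζ) ?_⟩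
    intro k g
    have hk : k = 0 := Subsingleton.elim _ _
    subst hk
    rw [hφ]
    simp only [LinearMap.neg_apply, map_neg, map_smul, smul_eq_mul, mul_neg]
    have := hζ' v
    have h3 : ξ₀ v = v i₀ := rfl
    rw [h3] at this
    linear_combination (-(g 0)) * this

end Vale.Agent.Lib.P190
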