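import Mathlib
import Vale.Agent.Lib.P190.Defs
import Vale.Agent.Lib.P190.OneRelation

namespace Vale.Agent.Lib.P190

universe u

/-- an injective map of finite free modules over a domain has a left inverse up to a nonzero
scalar -/
theorem exists_scaled_leftInverse {A : Type u} [CommRing A] [IsDomain A] {N n : ℕ}
    (φ : (Fin n → A) →ₗ[A] (Fin N → A)) (hφ : Function.Injective φ) :
    ∃ (a : A) (ψ : (Fin N → A) →ₗ[A] (Fin n → A)), a ≠ 0 ∧ ∀ g, ψ (φ g) = a • g := by
  classical
  let K := FractionRing A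
  -- the inclusion of `A^N` in `K^N`
  let ι : (Fin N → A) →ₗ[A] (Fin N → K) := (Algebra.linearMap A K).compLeft (Fin N)
  have hι : Function.Injective ι := by
    intro x y hxy
    funext i
    exact IsFractionRing.injective A K (congrFun hxy i)
  let v : Fin n → (Fin N → K) := fun k => ι (φ (Pi.single k 1))
  have hvA : LinearIndependent A v := by
    rw [linearIndependent_iff_injective_fintypeLinearCombination]
    have : (Fintype.linearCombination A v : (Fin n → A) → (Fin N → K)) = ι ∘ φ := by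
      funext g
      rw [Fintype.linearCombination_apply, Function.comp_apply, apply_eq_sum φ g, map_sum]
      refine Finset.sum_congr rfl fun k _ => ?_
      rw [map_smul]
    rw [this]
    exact hι.comp hφ
  have hvK : LinearIndependent K v := hvA.localization K (nonZeroDivisors A)
  rw [linearIndependent_iff_injective_fintypeLinearCombination] at hvK
  obtain ⟨γ, hγ⟩ := LinearMap.exists_leftInverse_of_injective (Fintype.linearCombination K v)
    (LinearMap.ker_eq_bot.2 hvK)
  obtain ⟨b, hb⟩ := IsLocalization.exist_integer_multiples_of_finite (nonZeroDivisors A)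
    (fun p : Fin N × Fin n => γ (Pi.single p.1 1) p.2)
  choose q hq using hb
  refine ⟨b, LinearMap.pi fun k => ∑ i, q (i, k) • LinearMap.proj i, nonZeroDivisors.coe_ne_zero b,
    fun g => ?_⟩
  funext k
  apply IsFractionRing.injective A K
  have h1 : γ (ι (φ g)) = fun l => algebraMap A K (g l) := by
    have h2 : ι (φ g) = Fintype.linearCombination K v (fun l => algebraMap A K (g l)) := by
      rw [Fintype.linearCombination_apply, apply_eq_sum φ g, map_sum]
      refine Finset.sum_congr rfl fun l _ => ?_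
      rw [map_smul, algebraMap_smul]
    rw [h2]
    exact LinearMap.congr_fun hγ _
  have h3 : γ (ι (φ g)) = ∑ i, algebraMap A K (φ g i) • γ (Pi.single i 1) := by
    rw [apply_eq_sum γ (ι (φ g))]
    rfl
  have h4 := congrFun (h3.symm.trans h1) k
  simp only [Finset.sum_apply, Pi.smul_apply, smul_eq_mul] at h4
  simp only [LinearMap.pi_apply, LinearMap.sum_apply, LinearMap.smul_apply, LinearMap.proj_apply,
    smul_eq_mul, map_sum, map_mul, Pi.smul_apply]
  rw [← h4, Finset.mul_sum]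
  refine Finset.sum_congr rfl fun i _ => ?_
  rw [hq (i, k), Algebra.smul_def]
  ring

/-- cyclic `Ext^1` -/
theorem exists_smallCM_of_cyclic_ext {A R : Type u} [CommRing A] [IsDomain A] [IsLocalRing A]
    [IsNoetherianRing A] [CommRing R] [IsLocalRing R] [Algebra A R]
    (hinj : Function.Injective (algebraMap A R)) (hA : IsSmallCM A A)
    (N n : ℕ) (π : (Fin N → A) →ₗ[A] R) (hπ : Function.Surjective π)
    (φ : (Fin n → A) →ₗ[A] (Fin N → A)) (hφ : Function.Injective φ)
    (hex : LinearMap.range φ = LinearMap.ker π)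
    (η₀ : (Fin n → A) →ₗ[A] A)
    (hcyc : ∀ η : (Fin n → A) →ₗ[A] A, ∃ (s : R) (σ : (Fin N → A) →ₗ[A] (Fin N → A))
      (τ : (Fin n → A) →ₗ[A] (Fin n → A)) (ξ : (Fin N → A) →ₗ[A] A),
      (∀ z, π (σ z) = s * π z) ∧ (∀ g, σ (φ g) = φ (τ g)) ∧ ∀ g, η g = η₀ (τ g) + ξ (φ g)) :
    ∃ (M : Type u) (_ : AddCommGroup M) (_ : Module R M), IsSmallCM R M := by
  obtain ⟨a, ψ, ha, hψ⟩ := exists_scaled_leftInverse φ hφ
  have hex' : ∀ z, π z = 0 ↔ ∃ g, φ g = z := by
    intro z
    rw [← LinearMap.mem_ker, ← hex, LinearMap.mem_range]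
  let ξ₀ : (Fin N → A) →ₗ[A] A := η₀ ∘ₗ ψ
  have hξ₀ : ∀ g, ξ₀ (φ g) = a * η₀ g := by
    intro g
    show η₀ (ψ (φ g)) = a * η₀ g
    rw [hψ, map_smul, smul_eq_mul]
  have hker : ∀ z, π z = 0 → a ∣ ξ₀ z := by
    intro z hz
    obtain ⟨g, rfl⟩ := (hex' z).1 hz
    exact ⟨η₀ g, hξ₀ g⟩
  have key : ∀ k : Fin n, ∃ (x : Fin N → A) (ξ' : (Fin N → A) →ₗ[A] A),
      ∀ g, a * ξ' (φ g) - ξ₀ (mulLift π hπ x (φ g)) = a * g k := by
    intro k
    obtain ⟨s, σ, τ, ξ, h1, h2, h3⟩ := hcyc (LinearMap.proj k)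
    obtain ⟨x, hx⟩ := hπ s
    obtain ⟨ζ, hζ⟩ := exists_div a (ξ₀ ∘ₗ (σ - mulLift π hπ x)) (by
      intro y
      exact hker (σ y - mulLift π hπ x y) (by rw [map_sub, π_mulLift, hx, h1, sub_self]))
    have hζ' : ∀ y, a * ζ y = ξ₀ (σ y) - ξ₀ (mulLift π hπ x y) := by
      intro y
      rw [hζ y]
      simp
    refine ⟨-x, ζ + ξ, fun g => ?_⟩
    have e1 := h3 g
    have e2 := hζ' (φ g)
    rw [h2, hξ₀] at e2
    simp only [LinearMap.proj_apply] at e1
    simp only [LinearMap.add_apply, map_neg, LinearMap.neg_apply]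
    rw [e1]
    linear_combination e2
  choose xq ξq hQ using key
  exact ⟨Mmod π hπ a ξ₀ hker, inferInstance, inferInstance,
    isSmallCM_Mmod π hπ a ha ξ₀ hker hinj hA φ hex' xq ξq hQ⟩

end Vale.Agent.Lib.P190
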