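import Mathlib
import Vale.Agent.Lib.P190.Defs
import Vale.Agent.Lib.P190.OneRelation

namespace Vale.Agent.Lib.P190

universe u

/-- over a GCD domain, the kernel of a map from a finite free module to a torsion-free module is
cyclic as soon as any two of its elements are linearly dependent -/
theorem ker_eq_span_singleton {A P : Type u} [CommRing A] [IsDomain A] [IsGCDMonoid A]
    [AddCommGroup P] [Module A P] (htf : ∀ (a : A) (x : P), a • x = 0 → a = 0 ∨ x = 0)
    {N : ℕ} (π : (Fin N → A) →ₗ[A] P)
    (hdep : ∀ u w : Fin N → A, π u = 0 → π w = 0 → ∃ s t : A, s • u + t • w = 0 ∧ ¬ (s = 0 ∧ t = 0)) :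
    ∃ v : Fin N → A, LinearMap.ker π = Submodule.span A {v} := by
  classical
  obtain ⟨_⟩ := (inferInstance : Nonempty (NormalizedGCDMonoid A))
  by_cases hbot : LinearMap.ker π = ⊥
  · exact ⟨0, by rw [hbot]; simp⟩
  obtain ⟨u, hu, hu0⟩ := (Submodule.ne_bot_iff _).1 hbot
  rw [LinearMap.mem_ker] at hu
  obtain ⟨i₀, hi₀⟩ : ∃ i, u i ≠ 0 := by
    by_contra h
    exact hu0 (funext fun i => by_contra fun hi => h ⟨i, hi⟩)
  obtain ⟨v, hv, hv1⟩ := Finset.extract_gcd u (s := Finset.univ) ⟨i₀, Finset.mem_univ _⟩
  set g₀ := Finset.univ.gcd u with hg₀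
  have huv : u = g₀ • v := funext fun i => hv i (Finset.mem_univ _)
  have hg₀0 : g₀ ≠ 0 := by
    intro h
    apply hu0
    rw [huv, h, zero_smul]
  have hv0 : v ≠ 0 := by
    intro h
    apply hu0
    rw [huv, h, smul_zero]
  have hπv : π v = 0 := by
    have : g₀ • π v = 0 := by rw [← map_smul, ← huv, hu]
    exact (htf _ _ this).resolve_left hg₀0
  refine ⟨v, le_antisymm ?_ ?_⟩
  · intro w hw
    rw [LinearMap.mem_ker] at hw
    obtain ⟨s, t, hst, hne⟩ := hdep v w hπv hw
    have ht : t ≠ 0 := by
      intro ht
      rw [ht, zero_smul, add_zero] at hst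
      have hs : s ≠ 0 := fun hs => hne ⟨hs, ht⟩
      apply hv0
      funext i
      have := congrFun hst i
      simp only [Pi.smul_apply, smul_eq_mul, Pi.zero_apply] at this
      exact (mul_eq_zero.1 this).resolve_left hs
    have hi : ∀ i, s * v i = - (t * w i) := by
      intro i
      have := congrFun hst i
      simp only [Pi.add_apply, Pi.smul_apply, smul_eq_mul, Pi.zero_apply] at this
      linear_combination this
    have hdvd : t ∣ Finset.univ.gcd (fun i => s * v i) := by
      apply Finset.dvd_gcd
      intro i _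
      rw [hi i]
      exact ⟨- w i, by ring⟩
    have hass := Finset.gcd_mul_left' Finset.univ v s
    rw [hv1, mul_one] at hass
    obtain ⟨c, hc⟩ := (hass.dvd_iff_dvd_right).1 hdvd
    rw [Submodule.mem_span_singleton]
    refine ⟨-c, ?_⟩
    funext i
    have h1 := hi i
    rw [hc] at h1
    have h2 : t * (w i + c * v i) = 0 := by linear_combination h1
    have h3 := (mul_eq_zero.1 h2).resolve_left ht
    simp only [Pi.smul_apply, smul_eq_mul]
    linear_combination -h3
  · rw [Submodule.span_singleton_le_iff_mem, LinearMap.mem_ker]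
    exact hπv

/-- at most `rank + 1` generators over a Cohen-Macaulay local UFD -/
theorem exists_smallCM_of_rank_add_one {A R : Type u} [CommRing A] [IsDomain A] [IsLocalRing A]
    [IsNoetherianRing A] [UniqueFactorizationMonoid A] [CommRing R] [IsDomain R] [IsLocalRing R]
    [Algebra A R] (hinj : Function.Injective (algebraMap A R)) (hA : IsSmallCM A A)
    (N : ℕ) (b : Fin N → R) (hb : Submodule.span A (Set.range b) = ⊤)
    (hN : N ≤ Module.finrank A R + 1) :
    ∃ (M : Type u) (_ : AddCommGroup M) (_ : Module R M), IsSmallCM R M := by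
  let π : (Fin N → A) →ₗ[A] R := Fintype.linearCombination A b
  have hπ : Function.Surjective π := by
    rw [← LinearMap.range_eq_top, Fintype.range_linearCombination, hb]
  have htf : ∀ (a : A) (x : R), a • x = 0 → a = 0 ∨ x = 0 := by
    intro a x h
    rw [Algebra.smul_def] at h
    rcases mul_eq_zero.1 h with h | h
    · left
      exact hinj (by rw [h, map_zero])
    · exact Or.inr h
  have hrk : Module.finrank A (LinearMap.ker π) ≤ 1 := by
    have h1 := (LinearMap.ker π).finrank_quotient_add_finrank
    rw [(π.quotKerEquivOfSurjective hπ).finrank_eq, Module.finrank_fin_fun] at h1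
    omega
  have hdep : ∀ u w : Fin N → A, π u = 0 → π w = 0 →
      ∃ s t : A, s • u + t • w = 0 ∧ ¬ (s = 0 ∧ t = 0) := by
    intro u w hu hw
    by_contra hcon
    push Not at hcon
    have hli : LinearIndependent A ![(⟨u, hu⟩ : LinearMap.ker π), ⟨w, hw⟩] := by
      rw [LinearIndependent.pair_iff]
      intro s t hst
      exact hcon s t (congrArg Subtype.val hst)
    have := hli.fintype_card_le_finrank
    simp at this
    omega
  obtain ⟨v, hv⟩ := ker_eq_span_singleton htf π hdep
  exact exists_smallCM_of_one_relation hinj hA N π hπ v hv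

end Vale.Agent.Lib.P190
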